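import Vale.Agent.Lib.P038.Sat.Shapes.S4_0f
noncomputable section
namespace Vale.Agent.Lib.P038.Sat.I.L1_4
open Vale.Agent.Lib.P038.Sat
def W : Nat := 293
def M : Nat := 15914343565113172548972231940698266883214596825515126958094847260581103904401068017057791
def GT : Nat := 1218000719344885259018324743716329491326811475559067246495062282291393750664100809707106906670156372686573960148127068719419694400378622802436193570423050775691051633921079964085394757767011411951014716504879699957619590813734583321740403622898985501640426454953763931495351835935778553026093118355854584212876868103060005219618997522344292442480601766394096666984358076377106281449182038290928598782274861780070048400220675970451296253002470290277598847384361619338135829111340205447559191851116354004628557107022053496796345026899278030368272050771647799682271668350893588088288011452314628526077720682321211131443518390150100575728452088192141039445278259716840727048790105000004874440844549455493082328663620952878261256393713448465679181938879011790959644548807474946353899391764299243144500226408692855320636690893562210250876804138657509003537133803719681122234581242784692017750174096925995011944543614271457506722009329185459592274056495416601003524411109716833504676792749572457628506307561392664771033416842581593920723986306349680993368250955701231569562351973492919875247115719982379028627335495004877956443052467493822497291434602005857167511021876160489858147517620786338202378210545614169724032780971178438626730024476724219314639810061465867200997717301132690416097100356217814866274479644132492237136727233574094129467393201865427547664643182126276299911606991495314156455060591864855382697625568126321114995582153896235916998447831388931486205813828574039280434691951191076036887110462261695698072397601199351458962562565347901862824814741194832545710599590509853932501865646629350267858048929281866657816389175437365397047991001194769151970667840495097276299551707104185955226479709646501551448329309091270411731417272526462134249327000057155706239341177084615533579978598799999996520361724314442655211683682677900727609666124467707678296092056167151730537041906313816998018060951718978482695527858851324600619115736643452535569919470973085040412768822477819881749385675197970928566757532379031800428019349817108890809397499166401639721210565228974464147754198977093005609252361082671042450693121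
def h0 : T := (T.l (nat_lit 0))
def H : T := h0
theorem hlast : getB H 0 = 0 := by decide +kernel
end Vale.Agent.Lib.P038.Sat.I.L1_4
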